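import Mathlib

/-!
Linear algebra of exceptional cycles: `A` is the intersection matrix of the exceptional curves
(symmetric, nonnegative off the diagonal, negative definite) over an ordered field.
-/

namespace Vale.Agent.P298.H312

open Matrix Finset

variable {K : Type*} [Field K] [LinearOrder K] [IsStrictOrderedRing K]
variable {ι : Type*} [Fintype ι] [DecidableEq ι]

/-- Intersection matrix of the exceptional curves of a resolution. -/
structure ExcMat (A : Matrix ι ι K) : Prop where
  symm : ∀ i j, A i j = A j i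
  off : ∀ i j, i ≠ j → 0 ≤ A i j
  neg : ∀ x : ι → K, x ≠ 0 → ∑ i, x i * (A *ᵥ x) i < 0

namespace ExcMat

variable {A : Matrix ι ι K}

omit [IsStrictOrderedRing K] [DecidableEq ι] in
theorem mulVec_apply' (x : ι → K) (i : ι) : (A *ᵥ x) i = ∑ j, A i j * x j := rfl

theorem diag_neg (h : ExcMat A) (i : ι) : A i i < 0 := by
  have := h.neg (Pi.single i 1) (by
    intro h0; have := congrFun h0 i; simp at this)
  simpa [Matrix.mulVec_single, Pi.single_apply] using this

/-- NEGATIVITY LEMMA. If `A x ≤ 0` on `S` and `x ≥ 0` off `S` then `x ≥ 0`. -/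
theorem nonneg_of (h : ExcMat A) (S : Finset ι) (x : ι → K)
    (h1 : ∀ i ∈ S, (A *ᵥ x) i ≤ 0) (h2 : ∀ i ∉ S, 0 ≤ x i) : ∀ i, 0 ≤ x i := by
  classical
  -- negative part
  set n : ι → K := fun i => max (-x i) 0 with hn
  set p : ι → K := fun i => max (x i) 0 with hp
  have hx : ∀ i, x i = p i - n i := by
    intro i
    simp only [hn, hp]
    rcases le_total (x i) 0 with h0 | h0
    · rw [max_eq_right h0, max_eq_left (by linarith)]; ring
    · rw [max_eq_left h0, max_eq_right (by linarith)]; ring
  have hn0 : ∀ i, 0 ≤ n i := fun i => le_max_right _ _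
  have hp0 : ∀ i, 0 ≤ p i := fun i => le_max_right _ _
  have hpn : ∀ i, n i * p i = 0 := by
    intro i
    simp only [hn, hp]
    rcases le_total (x i) 0 with h0 | h0
    · rw [max_eq_right h0]; ring
    · rw [max_eq_right (a := -x i) (by linarith)]; ring
  by_contra hcon
  push Not at hcon
  obtain ⟨i0, hi0⟩ := hcon
  have hnne : n ≠ 0 := by
    intro h0
    have := congrFun h0 i0
    simp only [hn, Pi.zero_apply] at this
    have h3 : -x i0 ≤ 0 := by
      calc -x i0 ≤ max (-x i0) 0 := le_max_left _ _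
        _ = 0 := this
    linarith
  have key := h.neg n hnne
  -- ∑ n_i (A x)_i ≤ 0
  have s1 : ∑ i, n i * (A *ᵥ x) i ≤ 0 := by
    apply Finset.sum_nonpos
    intro i _
    by_cases hi : i ∈ S
    · exact mul_nonpos_of_nonneg_of_nonpos (hn0 i) (h1 i hi)
    · have : n i = 0 := by
        simp only [hn]
        exact max_eq_right (by linarith [h2 i hi])
      rw [this]; simp
  have s2 : 0 ≤ ∑ i, n i * (A *ᵥ p) i := by
    apply Finset.sum_nonneg
    intro i _
    rw [mulVec_apply', Finset.mul_sum]
    apply Finset.sum_nonneg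
    intro j _
    by_cases hij : i = j
    · subst hij
      have : n i * (A i i * p i) = A i i * (n i * p i) := by ring
      rw [this, hpn i]; simp
    · exact mul_nonneg (hn0 i) (mul_nonneg (h.off i j hij) (hp0 j))
  have s3 : ∑ i, n i * (A *ᵥ x) i = ∑ i, n i * (A *ᵥ p) i - ∑ i, n i * (A *ᵥ n) i := by
    rw [← Finset.sum_sub_distrib]
    apply Finset.sum_congr rfl
    intro i _
    have : x = p - n := by funext j; simp [hx j]
    rw [this, Matrix.mulVec_sub]
    simp only [Pi.sub_apply]; ring
  linarith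

/-- Monotonicity: `A x ≤ A y` on `S`, `y ≤ x` off `S` imply `y ≤ x`. -/
theorem le_of (h : ExcMat A) (S : Finset ι) (x y : ι → K)
    (h1 : ∀ i ∈ S, (A *ᵥ x) i ≤ (A *ᵥ y) i) (h2 : ∀ i ∉ S, y i ≤ x i) : ∀ i, y i ≤ x i := by
  have := h.nonneg_of S (x - y) (by
    intro i hi
    rw [Matrix.mulVec_sub]
    simp only [Pi.sub_apply]
    linarith [h1 i hi]) (by
    intro i hi
    simp only [Pi.sub_apply]
    linarith [h2 i hi])
  intro i
  have h3 := this i
  simp only [Pi.sub_apply] at h3
  linarith

/-- Uniqueness of the solution of the Dirichlet problem. -/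
theorem eq_of (h : ExcMat A) (S : Finset ι) (x y : ι → K)
    (h1 : ∀ i ∈ S, (A *ᵥ x) i = (A *ᵥ y) i) (h2 : ∀ i ∉ S, y i = x i) : x = y := by
  funext i
  apply le_antisymm
  · exact h.le_of S y x (fun i hi => (h1 i hi).ge) (fun i hi => (h2 i hi).ge) i
  · exact h.le_of S x y (fun i hi => (h1 i hi).le) (fun i hi => (h2 i hi).le) i

/-- Existence for the Dirichlet problem: prescribed values off `S`, prescribed `A x` on `S`. -/
theorem exists_dirichlet (h : ExcMat A) (S : Finset ι) (c β : ι → K) :
    ∃ x : ι → K, (∀ i ∉ S, x i = β i) ∧ ∀ i ∈ S, (A *ᵥ x) i = c i := by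
  classical
  -- the linear map x ↦ (x off S, A x on S)
  let L : (ι → K) →ₗ[K] (ι → K) :=
    { toFun := fun x i => if i ∈ S then (A *ᵥ x) i else x i
      map_add' := by
        intro x y; funext i
        by_cases hi : i ∈ S <;> simp [hi, Matrix.mulVec_add]
      map_smul' := by
        intro c x; funext i
        by_cases hi : i ∈ S <;> simp [hi, Matrix.mulVec_smul] }
  have hinj : Function.Injective L := by
    rw [← LinearMap.ker_eq_bot, LinearMap.ker_eq_bot']
    intro x hx
    have : x = 0 := by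
      apply h.eq_of S x 0
      · intro i hi
        have := congrFun hx i
        simp only [L, LinearMap.coe_mk, AddHom.coe_mk, hi, if_true, Pi.zero_apply] at this
        rw [this]; simp
      · intro i hi
        have := congrFun hx i
        simp only [L, LinearMap.coe_mk, AddHom.coe_mk, hi, if_false, Pi.zero_apply] at this
        simp [this]
    exact this
  have hsurj : Function.Surjective L := (LinearMap.injective_iff_surjective).1 hinj
  obtain ⟨x, hx⟩ := hsurj (fun i => if i ∈ S then c i else β i)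
  refine ⟨x, ?_, ?_⟩
  · intro i hi
    have := congrFun hx i
    simpa [L, hi] using this
  · intro i hi
    have := congrFun hx i
    simpa [L, hi] using this

/-- ZARISKI DECOMPOSITION. For every `b` there is a cycle `D ≥ b` with `A D ≤ 0` which is
harmonic where it differs from `b`. -/
theorem exists_zariski (h : ExcMat A) (b : ι → K) :
    ∃ D : ι → K, (∀ i, b i ≤ D i) ∧ (∀ i, (A *ᵥ D) i ≤ 0) ∧
      (∀ i, (A *ᵥ D) i < 0 → D i = b i) := by
  classical
  -- strong induction on the complement of T
  suffices H : ∀ n : ℕ, ∀ T : Finset ι, Tᶜ.card = n → ∀ x : ι → K,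
      (∀ i ∉ T, x i = b i) → (∀ i ∈ T, (A *ᵥ x) i = 0) → (∀ i, b i ≤ x i) →
      ∃ D : ι → K, (∀ i, b i ≤ D i) ∧ (∀ i, (A *ᵥ D) i ≤ 0) ∧
        (∀ i, (A *ᵥ D) i < 0 → D i = b i) by
    exact H _ ∅ rfl b (fun i _ => rfl) (fun i hi => absurd hi (Finset.notMem_empty i))
      (fun i => le_refl _)
  intro n
  induction n with
  | zero =>
    intro T hT x h1 h2 h3
    have hT' : T = Finset.univ := by
      rw [Finset.card_eq_zero] at hT
      simpa using hT
    subst hT'
    exact ⟨x, h3, fun i => (h2 i (Finset.mem_univ i)).le,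
      fun i hi => absurd (h2 i (Finset.mem_univ i)) hi.ne⟩
  | succ n ih =>
    intro T hT x h1 h2 h3
    by_cases hall : ∀ i, (A *ᵥ x) i ≤ 0
    · refine ⟨x, h3, hall, ?_⟩
      intro i hi
      by_cases hiT : i ∈ T
      · exact absurd (h2 i hiT) hi.ne
      · exact h1 i hiT
    · push Not at hall
      obtain ⟨j, hj⟩ := hall
      have hjT : j ∉ T := by
        intro hjT
        have := h2 j hjT
        linarith
      obtain ⟨y, hy1, hy2⟩ := h.exists_dirichlet (insert j T) 0 b
      have hxy : ∀ i, x i ≤ y i := by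
        apply h.le_of (insert j T) y x
        · intro i hi
          rw [hy2 i hi]
          rcases Finset.mem_insert.1 hi with rfl | hi
          · simpa using hj.le
          · simp [h2 i hi]
        · intro i hi
          have : i ∉ T := fun hh => hi (Finset.mem_insert_of_mem hh)
          rw [h1 i this, hy1 i hi]
      apply ih (insert j T) ?_ y hy1 (fun i hi => by simpa using hy2 i hi)
        (fun i => (h3 i).trans (hxy i))
      have h4 : (insert j T)ᶜ = Tᶜ.erase j := by
        ext i; simp
      rw [h4, Finset.card_erase_of_mem (by simpa using hjT), hT]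
      simp

/-- Minimality of the Zariski cycle, testing only on the components where `A D < 0`. -/
theorem zariski_le (h : ExcMat A) {b D z : ι → K}
    (hD : ∀ i, (A *ᵥ D) i < 0 → D i = b i)
    (hD0 : ∀ i, (A *ᵥ D) i ≤ 0)
    (hz : ∀ i, (A *ᵥ z) i ≤ 0) (hzb : ∀ i, (A *ᵥ D) i < 0 → b i ≤ z i) :
    ∀ i, D i ≤ z i := by
  classical
  apply h.le_of (Finset.univ.filter fun i => (A *ᵥ D) i = 0) z D
  · intro i hi
    rw [(Finset.mem_filter.1 hi).2]
    exact hz i
  · intro i hi
    have hlt : (A *ᵥ D) i < 0 := by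
      rcases lt_or_eq_of_le (hD0 i) with hh | hh
      · exact hh
      · exact absurd (Finset.mem_filter.2 ⟨Finset.mem_univ i, hh⟩) hi
    rw [hD i hlt]
    exact hzb i hlt

/-- The Zariski cycle is unique. -/
theorem zariski_unique (h : ExcMat A) {b D D' : ι → K}
    (h1 : ∀ i, b i ≤ D i) (h2 : ∀ i, (A *ᵥ D) i ≤ 0) (h3 : ∀ i, (A *ᵥ D) i < 0 → D i = b i)
    (h1' : ∀ i, b i ≤ D' i) (h2' : ∀ i, (A *ᵥ D') i ≤ 0)
    (h3' : ∀ i, (A *ᵥ D') i < 0 → D' i = b i) : D = D' := by
  funext i
  apply le_antisymm
  · exact h.zariski_le h3 h2 h2' (fun i _ => h1' i) i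
  · exact h.zariski_le h3' h2' h2 (fun i _ => h1 i) i

/-- An anti-nef cycle is nonnegative. -/
theorem antinef_nonneg (h : ExcMat A) {z : ι → K} (hz : ∀ i, (A *ᵥ z) i ≤ 0) : ∀ i, 0 ≤ z i :=
  h.nonneg_of Finset.univ z (fun i _ => hz i) (fun i hi => absurd (Finset.mem_univ i) hi)

/-- Strictly anti-nef cycles exist (even with `A z = -c` for any prescribed `c`), and are
positive. -/
theorem exists_ample (h : ExcMat A) (c : ι → K) :
    ∃ z : ι → K, ∀ i, (A *ᵥ z) i = -c i := by
  obtain ⟨z, _, hz⟩ := h.exists_dirichlet Finset.univ (fun i => -c i) 0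
  exact ⟨z, fun i => hz i (Finset.mem_univ i)⟩

theorem pos_of_strict (h : ExcMat A) {z : ι → K} (hz : ∀ i, (A *ᵥ z) i ≤ 0) (i : ι)
    (hi : (A *ᵥ z) i < 0) : 0 < z i := by
  have h0 := h.antinef_nonneg hz
  rcases lt_or_eq_of_le (h0 i) with hh | hh
  · exact hh
  · exfalso
    have : 0 ≤ (A *ᵥ z) i := by
      rw [mulVec_apply']
      apply Finset.sum_nonneg
      intro j _
      by_cases hij : i = j
      · subst hij; rw [← hh]; simp
      · exact mul_nonneg (h.off i j hij) (h0 j)
    linarith

/-- `A` is connected (irreducible). -/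
def Conn (A : Matrix ι ι K) : Prop :=
  ∀ S : Finset ι, S.Nonempty → S ≠ Finset.univ → ∃ i ∈ S, ∃ j, j ∉ S ∧ 0 < A i j

/-- A nonzero anti-nef cycle on a connected configuration is positive everywhere. -/
theorem antinef_pos (h : ExcMat A) (hc : Conn A) {z : ι → K} (hz : ∀ i, (A *ᵥ z) i ≤ 0)
    (hne : z ≠ 0) : ∀ i, 0 < z i := by
  classical
  have h0 := h.antinef_nonneg hz
  by_contra hcon
  push Not at hcon
  obtain ⟨i0, hi0⟩ := hcon
  have hi0' : z i0 = 0 := le_antisymm hi0 (h0 i0)
  set S := Finset.univ.filter fun i => z i = 0 with hS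
  have hSne : S.Nonempty := ⟨i0, by simp [hS, hi0']⟩
  have hSu : S ≠ Finset.univ := by
    intro h1
    apply hne
    funext i
    have : i ∈ S := by rw [h1]; exact Finset.mem_univ i
    simpa [hS] using this
  obtain ⟨i, hi, j, hj, hij⟩ := hc S hSne hSu
  have hzi : z i = 0 := by simpa [hS] using hi
  have hzj : 0 < z j := by
    have : z j ≠ 0 := by simpa [hS] using hj
    exact lt_of_le_of_ne (h0 j) (Ne.symm this)
  have : 0 < (A *ᵥ z) i := by
    rw [mulVec_apply']
    apply Finset.sum_pos'
    · intro k _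
      by_cases hik : i = k
      · subst hik; rw [hzi]; simp
      · exact mul_nonneg (h.off i k hik) (h0 k)
    · exact ⟨j, Finset.mem_univ j, mul_pos hij hzj⟩
  linarith [hz i]

end ExcMat

end Vale.Agent.P298.H312
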